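import Mathlib

namespace Vale.Agent.Lib.P037.helper29

open Finset

variable {n : ℕ}

/-- Positions after `i` that satisfy `Y`. -/
def after (Y : Fin n → Prop) [DecidablePred Y] (i : Fin n) : Finset (Fin n) :=
  univ.filter (fun j => i < j ∧ Y j)

/-- Ordered pairs `i < j` with `X i` and `Y j`. -/
def inv (X Y : Fin n → Prop) [DecidablePred X] [DecidablePred Y] : Finset (Fin n × Fin n) :=
  univ.filter (fun p => p.1 < p.2 ∧ X p.1 ∧ Y p.2)

/-- A set of positions meeting every pair counted by `inv`. -/
def cut (X Y : Fin n → Prop) [DecidablePred X] [DecidablePred Y] (s : ℕ) : Finset (Fin n) :=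
  univ.filter (fun i => X i ∧ s < (after Y i).card) ∪
    univ.filter (fun j => Y j ∧ ∃ i, i < j ∧ X i ∧ (after Y i).card ≤ s)

theorem cut_hits (X Y : Fin n → Prop) [DecidablePred X] [DecidablePred Y] (s : ℕ)
    (i j : Fin n) (hij : i < j) (hX : X i) (hY : Y j) :
    i ∈ cut X Y s ∨ j ∈ cut X Y s := by
  unfold cut
  by_cases h : s < (after Y i).card
  · left
    simp only [mem_union, mem_filter, mem_univ, true_and]
    exact Or.inl ⟨hX, h⟩
  · right
    simp only [mem_union, mem_filter, mem_univ, true_and]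
    exact Or.inr ⟨hY, i, hij, hX, not_lt.mp h⟩

theorem heavy_card (X Y : Fin n → Prop) [DecidablePred X] [DecidablePred Y] (s : ℕ) :
    (univ.filter (fun i => X i ∧ s < (after Y i).card)).card * (s + 1) ≤ (inv X Y).card := by
  classical
  set S1 := univ.filter (fun i => X i ∧ s < (after Y i).card) with hS1
  have h1 : (S1.sigma (fun i => after Y i)).card = ∑ i ∈ S1, (after Y i).card :=
    Finset.card_sigma _ _
  have h2 : (S1.sigma (fun i => after Y i)).card ≤ (inv X Y).card := by
    apply Finset.card_le_card_of_injOn (fun x => (x.1, x.2))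
    · intro x hx
      have hx' := Finset.mem_sigma.mp hx
      have hxS : x.1 ∈ S1 := hx'.1
      have hxa : x.2 ∈ after Y x.1 := hx'.2
      rw [hS1, mem_filter] at hxS
      unfold after at hxa
      rw [mem_filter] at hxa
      unfold inv
      exact Finset.mem_coe.mpr (mem_filter.mpr ⟨mem_univ _, hxa.2.1, hxS.2.1, hxa.2.2⟩)
    · intro x _ y _ hxy
      simp only [Prod.mk.injEq] at hxy
      exact Sigma.ext hxy.1 (heq_of_eq hxy.2)
  have h3 : S1.card * (s + 1) ≤ ∑ i ∈ S1, (after Y i).card := by
    rw [← smul_eq_mul]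
    apply Finset.card_nsmul_le_sum
    intro i hi
    rw [hS1, mem_filter] at hi
    exact hi.2.2
  omega

theorem light_card (X Y : Fin n → Prop) [DecidablePred X] [DecidablePred Y] (s : ℕ) :
    (univ.filter (fun j => Y j ∧ ∃ i, i < j ∧ X i ∧ (after Y i).card ≤ s)).card ≤ s := by
  classical
  set L := univ.filter (fun i => X i ∧ (after Y i).card ≤ s) with hL
  by_cases hne : L.Nonempty
  · set i0 := L.min' hne with hi0
    have hi0L : i0 ∈ L := Finset.min'_mem L hne
    rw [hL, mem_filter] at hi0L
    have hsub : univ.filter (fun j => Y j ∧ ∃ i, i < j ∧ X i ∧ (after Y i).card ≤ s) ⊆ after Y i0 := by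
      intro j hj
      rw [mem_filter] at hj
      obtain ⟨-, hYj, i, hij, hXi, hli⟩ := hj
      have hiL : i ∈ L := by
        rw [hL, mem_filter]
        exact ⟨mem_univ _, hXi, hli⟩
      have : i0 ≤ i := Finset.min'_le L i hiL
      unfold after
      rw [mem_filter]
      exact ⟨mem_univ _, lt_of_le_of_lt this hij, hYj⟩
    exact le_trans (Finset.card_le_card hsub) hi0L.2.2
  · have hempty : univ.filter (fun j => Y j ∧ ∃ i, i < j ∧ X i ∧ (after Y i).card ≤ s) = ∅ := by
      apply Finset.filter_eq_empty_iff.mpr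
      intro j _ hj
      obtain ⟨-, i, -, hXi, hli⟩ := hj
      apply hne
      exact ⟨i, by rw [hL, mem_filter]; exact ⟨mem_univ _, hXi, hli⟩⟩
    rw [hempty]
    simp

theorem cut_card (X Y : Fin n → Prop) [DecidablePred X] [DecidablePred Y] :
    (cut X Y (Nat.sqrt (inv X Y).card)).card ≤ 2 * Nat.sqrt (inv X Y).card := by
  classical
  set I := (inv X Y).card with hI
  set s := Nat.sqrt I with hs
  have h1 := heavy_card X Y s
  have h2 := light_card X Y s
  have h3 : I < (s + 1) * (s + 1) := Nat.lt_succ_sqrt I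
  have h4 : (univ.filter (fun i => X i ∧ s < (after Y i).card)).card ≤ s := by
    by_contra hcon
    have hcon := Nat.succ_le_of_lt (not_le.mp hcon)
    have : (s + 1) * (s + 1) ≤ (univ.filter (fun i => X i ∧ s < (after Y i).card)).card * (s + 1) :=
      Nat.mul_le_mul_right _ hcon
    omega
  unfold cut
  calc _ ≤ (univ.filter (fun i => X i ∧ s < (after Y i).card)).card +
        (univ.filter (fun j => Y j ∧ ∃ i, i < j ∧ X i ∧ (after Y i).card ≤ s)).card :=
        Finset.card_union_le _ _
    _ ≤ s + s := Nat.add_le_add h4 h2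
    _ = 2 * s := by ring

end Vale.Agent.Lib.P037.helper29
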