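import Mathlib
import Vale.Agent.Lib.P037.Defs

/-!
Polynomial removal for the six degenerate `2 x 2` patterns (two equal rows or two equal
columns), with explicit constants: `ε ^ 8 * n ^ 4 ≤ 2 ^ 20 * N_H(A)`.

Equal rows `(a, b), (a, b)`: a copy is a pair of rows sharing a column pair `c < d` with
entries `(a, b)`.  Each row is repaired at a balanced split position `t`: entries before `t`
are set to `!a`, entries from `t` on to `!b`.  Equal columns follow by transposition.
-/

namespace Vale.Agent.Lib.P037.helper29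

open Vale.Agent.Lib.P037
open Finset

variable {n : ℕ}

/-! ### One row -/

/-- Number of positions before `t` carrying the value `a`. -/
def cntA (x : Fin n → Bool) (a : Bool) (t : ℕ) : ℕ :=
  (univ.filter fun p : Fin n => p.val < t ∧ x p = a).card

/-- Number of positions from `t` on carrying the value `b`. -/
def cntB (x : Fin n → Bool) (b : Bool) (t : ℕ) : ℕ :=
  (univ.filter fun p : Fin n => t ≤ p.val ∧ x p = b).card

theorem card_val_eq_le_one (t : ℕ) : (univ.filter fun p : Fin n => p.val = t).card ≤ 1 := by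
  rw [Finset.card_le_one]
  intro p hp q hq
  simp only [mem_filter, mem_univ, true_and] at hp hq
  exact Fin.ext (by omega)

theorem cntA_succ (x : Fin n → Bool) (a : Bool) (t : ℕ) : cntA x a (t + 1) ≤ cntA x a t + 1 := by
  unfold cntA
  have hsub : (univ.filter fun p : Fin n => p.val < t + 1 ∧ x p = a) ⊆
      (univ.filter fun p : Fin n => p.val < t ∧ x p = a) ∪
        (univ.filter fun p : Fin n => p.val = t) := by
    intro p hp
    simp only [mem_filter, mem_univ, true_and, mem_union] at hp ⊢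
    by_cases h : p.val < t
    · exact Or.inl ⟨h, hp.2⟩
    · right
      omega
  have h1 := card_le_card hsub
  have h2 := card_union_le (univ.filter fun p : Fin n => p.val < t ∧ x p = a)
    (univ.filter fun p : Fin n => p.val = t)
  have h3 := card_val_eq_le_one (n := n) t
  omega

theorem cntB_pred (x : Fin n → Bool) (b : Bool) (t : ℕ) : cntB x b t ≤ cntB x b (t + 1) + 1 := by
  unfold cntB
  have hsub : (univ.filter fun p : Fin n => t ≤ p.val ∧ x p = b) ⊆
      (univ.filter fun p : Fin n => t + 1 ≤ p.val ∧ x p = b) ∪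
        (univ.filter fun p : Fin n => p.val = t) := by
    intro p hp
    simp only [mem_filter, mem_univ, true_and, mem_union] at hp ⊢
    by_cases h : t + 1 ≤ p.val
    · exact Or.inl ⟨h, hp.2⟩
    · right
      omega
  have h1 := card_le_card hsub
  have h2 := card_union_le (univ.filter fun p : Fin n => t + 1 ≤ p.val ∧ x p = b)
    (univ.filter fun p : Fin n => p.val = t)
  have h3 := card_val_eq_le_one (n := n) t
  omega

/-- A balanced split position exists. -/
theorem exists_split (x : Fin n → Bool) (a b : Bool) :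
    ∃ t : ℕ, cntB x b t ≤ cntA x a t ∧ cntA x a t ≤ cntB x b t + 1 := by
  classical
  have hex : ∃ t, cntB x b t ≤ cntA x a t := by
    refine ⟨n, ?_⟩
    have h0 : cntB x b n = 0 := by
      unfold cntB
      rw [Finset.card_eq_zero, Finset.filter_eq_empty_iff]
      intro p _ hp
      have := p.isLt
      omega
    omega
  refine ⟨Nat.find hex, Nat.find_spec hex, ?_⟩
  rcases Nat.eq_zero_or_pos (Nat.find hex) with h0 | hpos
  · rw [h0]
    have h1 : cntA x a 0 = 0 := by
      unfold cntA
      rw [Finset.card_eq_zero, Finset.filter_eq_empty_iff]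
      intro p _ hp
      omega
    omega
  · obtain ⟨s, hs⟩ : ∃ s, Nat.find hex = s + 1 := ⟨Nat.find hex - 1, by omega⟩
    have hmin : ¬ (cntB x b s ≤ cntA x a s) := Nat.find_min hex (by omega)
    rw [hs]
    have h1 := cntA_succ x a s
    have h2 := cntB_pred x b s
    omega

/-- The repaired row for the split position `t`. -/
def splitRow (a b : Bool) (t : ℕ) : Fin n → Bool := fun p => if p.val < t then !a else !b

theorem splitRow_free (a b : Bool) (t : ℕ) (c d : Fin n) (hcd : c < d) :
    ¬ (splitRow a b t c = a ∧ splitRow a b t d = b) := by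
  rintro ⟨h1, h2⟩
  unfold splitRow at h1 h2
  by_cases hc : c.val < t
  · rw [if_pos hc] at h1
    cases a <;> simp at h1
  · have hd : ¬ d.val < t := by
      have : c.val < d.val := hcd
      omega
    rw [if_neg hd] at h2
    cases b <;> simp at h2

theorem splitRow_cost (x : Fin n → Bool) (a b : Bool) (t : ℕ) :
    (univ.filter fun p : Fin n => x p ≠ splitRow a b t p).card ≤ cntA x a t + cntB x b t := by
  unfold cntA cntB
  refine le_trans (card_le_card ?_) (card_union_le _ _)
  intro p hp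
  simp only [mem_filter, mem_univ, true_and, mem_union] at hp ⊢
  unfold splitRow at hp
  by_cases h : p.val < t
  · left
    rw [if_pos h] at hp
    refine ⟨h, ?_⟩
    revert hp
    cases x p <;> cases a <;> simp
  · right
    rw [if_neg h] at hp
    refine ⟨by omega, ?_⟩
    revert hp
    cases x p <;> cases b <;> simp

/-- Number of column pairs `c < d` with entries `(a, b)` in the row `x`. -/
def rowPairs (x : Fin n → Bool) (a b : Bool) : ℕ :=
  (univ.filter fun q : Fin n × Fin n => q.1 < q.2 ∧ x q.1 = a ∧ x q.2 = b).card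

theorem cnt_mul_le (x : Fin n → Bool) (a b : Bool) (t : ℕ) :
    cntA x a t * cntB x b t ≤ rowPairs x a b := by
  unfold cntA cntB rowPairs
  rw [← card_product]
  apply card_le_card
  intro q hq
  simp only [mem_product, mem_filter, mem_univ, true_and] at hq ⊢
  refine ⟨?_, hq.1.2, hq.2.2⟩
  have h : q.1.val < q.2.val := by omega
  exact h

/-! ### The repaired matrix -/

/-- The balanced split position of row `x` of `A`. -/
noncomputable def splitAt (A : BMat n) (a b : Bool) (x : Fin n) : ℕ :=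
  Classical.choose (exists_split (A x) a b)

theorem splitAt_spec (A : BMat n) (a b : Bool) (x : Fin n) :
    cntB (A x) b (splitAt A a b x) ≤ cntA (A x) a (splitAt A a b x) ∧
    cntA (A x) a (splitAt A a b x) ≤ cntB (A x) b (splitAt A a b x) + 1 :=
  Classical.choose_spec (exists_split (A x) a b)

/-- Every row of `A` repaired at its balanced split position. -/
noncomputable def repair (A : BMat n) (a b : Bool) : BMat n :=
  fun x => splitRow a b (splitAt A a b x)

theorem repair_free (H : Fin 2 → Fin 2 → Bool) (A : BMat n) :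
    IsFree H (repair A (H 0 0) (H 0 1)) := by
  intro i j c d hcopy
  obtain ⟨_, hcd, h1, h2, _, _⟩ := hcopy
  exact splitRow_free (H 0 0) (H 0 1) (splitAt A (H 0 0) (H 0 1) i) c d hcd ⟨h1, h2⟩

theorem hammingDist_eq_sum (A B : BMat n) :
    hammingDist A B = ∑ x : Fin n, (univ.filter fun c : Fin n => A x c ≠ B x c).card := by
  unfold hammingDist
  rw [Finset.card_filter, Fintype.sum_prod_type]
  refine Finset.sum_congr rfl fun x _ => ?_
  rw [Finset.card_filter]

/-- The `beta` count of row `x`. -/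
noncomputable def betaOf (A : BMat n) (a b : Bool) (x : Fin n) : ℕ :=
  cntB (A x) b (splitAt A a b x)

theorem dist_repair_le (A : BMat n) (a b : Bool) :
    hammingDist A (repair A a b) ≤ 2 * (∑ x : Fin n, betaOf A a b x) + n := by
  rw [hammingDist_eq_sum]
  have h : ∀ x : Fin n, (univ.filter fun c : Fin n => A x c ≠ repair A a b x c).card ≤
      2 * betaOf A a b x + 1 := by
    intro x
    have h1 := splitRow_cost (A x) a b (splitAt A a b x)
    have h2 := (splitAt_spec A a b x).2
    unfold betaOf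
    unfold repair
    omega
  calc ∑ x : Fin n, (univ.filter fun c : Fin n => A x c ≠ repair A a b x c).card
      ≤ ∑ x : Fin n, (2 * betaOf A a b x + 1) := Finset.sum_le_sum fun x _ => h x
    _ = 2 * (∑ x : Fin n, betaOf A a b x) + n := by
      rw [Finset.sum_add_distrib, ← Finset.mul_sum]
      simp

theorem beta_sq_le (A : BMat n) (a b : Bool) (x : Fin n) :
    betaOf A a b x ^ 2 ≤ rowPairs (A x) a b := by
  have h1 := (splitAt_spec A a b x).1
  have h2 := cnt_mul_le (A x) a b (splitAt A a b x)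
  unfold betaOf
  calc cntB (A x) b (splitAt A a b x) ^ 2
      = cntB (A x) b (splitAt A a b x) * cntB (A x) b (splitAt A a b x) := by ring
    _ ≤ cntA (A x) a (splitAt A a b x) * cntB (A x) b (splitAt A a b x) :=
      Nat.mul_le_mul_right _ h1
    _ ≤ _ := h2

/-! ### Counting copies through column pairs -/

/-- Number of rows with entries `(a, b)` at the column pair `q` (zero unless `q.1 < q.2`). -/
def rowsAt (A : BMat n) (a b : Bool) (q : Fin n × Fin n) : ℕ :=
  (univ.filter fun x : Fin n => q.1 < q.2 ∧ A x q.1 = a ∧ A x q.2 = b).card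

theorem sum_rowsAt (A : BMat n) (a b : Bool) :
    ∑ q : Fin n × Fin n, rowsAt A a b q = ∑ x : Fin n, rowPairs (A x) a b := by
  unfold rowsAt rowPairs
  simp only [Finset.card_filter]
  rw [Finset.sum_comm]

/-- Number of pairs of rows `i < j` that both have entries `(a, b)` at the column pair `q`. -/
def pairsAt (A : BMat n) (a b : Bool) (q : Fin n × Fin n) : ℕ :=
  (univ.filter fun ij : Fin n × Fin n => ij.1 < ij.2 ∧
    (q.1 < q.2 ∧ A ij.1 q.1 = a ∧ A ij.1 q.2 = b) ∧
    (q.1 < q.2 ∧ A ij.2 q.1 = a ∧ A ij.2 q.2 = b)).card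

theorem card_sq_le (R : Finset (Fin n)) :
    R.card ^ 2 ≤ R.card + 2 * ((R ×ˢ R).filter fun ij : Fin n × Fin n => ij.1 < ij.2).card := by
  have hsplit : (R ×ˢ R) =
      ((R ×ˢ R).filter fun ij : Fin n × Fin n => ij.1 < ij.2) ∪
      (((R ×ˢ R).filter fun ij : Fin n × Fin n => ij.1 = ij.2) ∪
       ((R ×ˢ R).filter fun ij : Fin n × Fin n => ij.2 < ij.1)) := by
    ext ij
    simp only [mem_union, mem_filter]
    constructor
    · intro h
      rcases lt_trichotomy ij.1 ij.2 with h1 | h1 | h1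
      · exact Or.inl ⟨h, h1⟩
      · exact Or.inr (Or.inl ⟨h, h1⟩)
      · exact Or.inr (Or.inr ⟨h, h1⟩)
    · rintro (h | h | h) <;> exact h.1
  have hdiag : ((R ×ˢ R).filter fun ij : Fin n × Fin n => ij.1 = ij.2).card ≤ R.card := by
    apply Finset.card_le_card_of_injOn (fun ij => ij.1)
    · intro ij hij
      have hij' := Finset.mem_coe.mp hij
      simp only [mem_filter, mem_product] at hij'
      exact Finset.mem_coe.mpr hij'.1.1
    · intro ij hij ij' hij' heq
      have h1 := Finset.mem_coe.mp hij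
      have h2 := Finset.mem_coe.mp hij'
      simp only [mem_filter, mem_product] at h1 h2
      have heq' : ij.1 = ij'.1 := heq
      exact Prod.ext heq' (by rw [← h1.2, ← h2.2]; exact heq')
  have hswap : ((R ×ˢ R).filter fun ij : Fin n × Fin n => ij.2 < ij.1).card =
      ((R ×ˢ R).filter fun ij : Fin n × Fin n => ij.1 < ij.2).card := by
    apply Finset.card_bij (fun ij _ => (ij.2, ij.1))
    · intro ij hij
      simp only [mem_filter, mem_product] at hij ⊢
      exact ⟨⟨hij.1.2, hij.1.1⟩, hij.2⟩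
    · intro ij _ ij' _ heq
      have h1 : ij.2 = ij'.2 := congrArg Prod.fst heq
      have h2 : ij.1 = ij'.1 := congrArg Prod.snd heq
      exact Prod.ext h2 h1
    · intro ij hij
      simp only [mem_filter, mem_product] at hij
      refine ⟨(ij.2, ij.1), ?_, rfl⟩
      simp only [mem_filter, mem_product]
      exact ⟨⟨hij.1.2, hij.1.1⟩, hij.2⟩
  have hcard : (R ×ˢ R).card = R.card * R.card := card_product R R
  have h1 : (R ×ˢ R).card ≤
      ((R ×ˢ R).filter fun ij : Fin n × Fin n => ij.1 < ij.2).card +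
      (((R ×ˢ R).filter fun ij : Fin n × Fin n => ij.1 = ij.2).card +
       ((R ×ˢ R).filter fun ij : Fin n × Fin n => ij.2 < ij.1).card) := by
    calc (R ×ˢ R).card = _ := congrArg Finset.card hsplit
      _ ≤ _ := le_trans (card_union_le _ _) (Nat.add_le_add_left (card_union_le _ _) _)
  have h2 : R.card ^ 2 = R.card * R.card := by ring
  omega

theorem rowsAt_sq_le (A : BMat n) (a b : Bool) (q : Fin n × Fin n) :
    rowsAt A a b q ^ 2 ≤ rowsAt A a b q + 2 * pairsAt A a b q := by
  have h := card_sq_le (univ.filter fun x : Fin n => q.1 < q.2 ∧ A x q.1 = a ∧ A x q.2 = b)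
  have heq : ((univ.filter fun x : Fin n => q.1 < q.2 ∧ A x q.1 = a ∧ A x q.2 = b) ×ˢ
      (univ.filter fun x : Fin n => q.1 < q.2 ∧ A x q.1 = a ∧ A x q.2 = b)).filter
        (fun ij : Fin n × Fin n => ij.1 < ij.2) =
      (univ.filter fun ij : Fin n × Fin n => ij.1 < ij.2 ∧
        (q.1 < q.2 ∧ A ij.1 q.1 = a ∧ A ij.1 q.2 = b) ∧
        (q.1 < q.2 ∧ A ij.2 q.1 = a ∧ A ij.2 q.2 = b)) := by
    ext ij
    simp only [mem_filter, mem_product, mem_univ, true_and]
    tauto
  rw [heq] at h
  exact h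

theorem sum_pairsAt (H : Fin 2 → Fin 2 → Bool) (hH : H 0 = H 1) (A : BMat n) :
    ∑ q : Fin n × Fin n, pairsAt A (H 0 0) (H 0 1) q = numCopies H A := by
  have h10 : H 1 0 = H 0 0 := by rw [hH]
  have h11 : H 1 1 = H 0 1 := by rw [hH]
  unfold pairsAt numCopies copySet
  simp only [Finset.card_filter]
  rw [Finset.sum_comm]
  simp only [Fintype.sum_prod_type]
  refine Finset.sum_congr rfl fun i _ => Finset.sum_congr rfl fun j _ =>
    Finset.sum_congr rfl fun c _ => Finset.sum_congr rfl fun d _ => ?_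
  refine if_congr ?_ rfl rfl
  unfold IsCopy
  rw [h10, h11]
  tauto

/-! ### Arithmetic -/

theorem arith_degen (n ε N P Sb : ℝ) (hn : 1 ≤ n) (hε : 0 < ε) (hε1 : ε < 1) (hN : 1 ≤ N)
    (h1 : ε * n ^ 2 ≤ 2 * Sb + n) (h2 : Sb ^ 2 ≤ n * P)
    (h3 : P ^ 2 ≤ n ^ 2 * (P + 2 * N)) : ε ^ 8 * n ^ 4 ≤ 1048576 * N := by
  have hn0 : 0 < n := by linarith
  by_cases h : ε ^ 2 * n ≤ 32
  · have h4 : ε ^ 8 * n ^ 4 = (ε ^ 2 * n) ^ 4 := by ring
    have h5 : (ε ^ 2 * n) ^ 4 ≤ 32 ^ 4 := pow_le_pow_left₀ (by positivity) h 4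
    rw [h4]
    nlinarith
  · have h' : 32 < ε ^ 2 * n := lt_of_not_ge h
    have hεn : 32 < ε * n := by nlinarith [mul_pos hε hn0]
    have hSb1 : ε * n ^ 2 ≤ 4 * Sb := by nlinarith
    have hSb2 : (ε * n ^ 2) ^ 2 ≤ (4 * Sb) ^ 2 :=
      pow_le_pow_left₀ (by positivity) hSb1 2
    have hP1 : ε ^ 2 * n ^ 3 ≤ 16 * P := by
      have h6 : n * (ε ^ 2 * n ^ 3) ≤ n * (16 * P) := by nlinarith
      exact le_of_mul_le_mul_left h6 hn0
    have hP2 : 2 * n ^ 2 ≤ P := by nlinarith [sq_nonneg n, mul_pos hn0 hn0]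
    have hP0 : 0 ≤ P := by nlinarith [sq_nonneg n]
    have hP3 : P ^ 2 ≤ 4 * n ^ 2 * N := by nlinarith
    have hP4 : (ε ^ 2 * n ^ 3) ^ 2 ≤ (16 * P) ^ 2 :=
      pow_le_pow_left₀ (by positivity) hP1 2
    have h7 : n ^ 2 * (ε ^ 4 * n ^ 4) ≤ n ^ 2 * (1024 * N) := by nlinarith
    have h8 : ε ^ 4 * n ^ 4 ≤ 1024 * N := le_of_mul_le_mul_left h7 (by positivity)
    have h9 : ε ^ 4 ≤ 1 := pow_le_one₀ hε.le hε1.le
    have h10 : ε ^ 8 * n ^ 4 = ε ^ 4 * (ε ^ 4 * n ^ 4) := by ring
    have h11 : 0 ≤ ε ^ 4 * n ^ 4 := by positivity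
    rw [h10]
    nlinarith

/-! ### Equal rows -/

theorem hammingDist_self (A : BMat n) : hammingDist A A = 0 := by
  unfold hammingDist
  rw [Finset.card_eq_zero, Finset.filter_eq_empty_iff]
  intro p _ hp
  exact hp rfl

theorem numCopies_pos_of_far (H : Fin 2 → Fin 2 → Bool) (A : BMat n) (hn : 0 < n) (ε : ℝ)
    (hε : 0 < ε)
    (hfar : ∀ B : BMat n, IsFree H B → ε * (n : ℝ) ^ 2 ≤ (hammingDist A B : ℝ)) :
    1 ≤ numCopies H A := by
  by_contra hlt
  have h0 : numCopies H A = 0 := by omega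
  have hfree : IsFree H A := by
    intro i j c d hc
    have hmem : (i, j, c, d) ∈ copySet H A := by
      unfold copySet
      simp only [mem_filter, mem_univ, true_and]
      exact hc
    unfold numCopies at h0
    rw [Finset.card_eq_zero] at h0
    rw [h0] at hmem
    exact absurd hmem (Finset.notMem_empty _)
  have h1 := hfar A hfree
  rw [hammingDist_self] at h1
  have hn' : (0 : ℝ) < n := by exact_mod_cast hn
  have h2 : 0 < ε * (n : ℝ) ^ 2 := by positivity
  simp only [Nat.cast_zero] at h1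
  linarith

/-- Polynomial removal for patterns with two equal rows. -/
theorem removal_eqRows (H : Fin 2 → Fin 2 → Bool) (hH : H 0 = H 1) (n : ℕ) (A : BMat n) (ε : ℝ)
    (hε : 0 < ε) (hε1 : ε < 1)
    (hfar : ∀ B : BMat n, IsFree H B → ε * (n : ℝ) ^ 2 ≤ (hammingDist A B : ℝ)) :
    ε ^ 8 * (n : ℝ) ^ 4 ≤ 1048576 * (numCopies H A : ℝ) := by
  rcases Nat.eq_zero_or_pos n with hn | hn
  · subst hn
    simp
  have hN : 1 ≤ numCopies H A := numCopies_pos_of_far H A hn ε hε hfar
  have hNr : (1 : ℝ) ≤ (numCopies H A : ℝ) := by exact_mod_cast hN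
  have hnr : (1 : ℝ) ≤ (n : ℝ) := by exact_mod_cast hn
  set a := H 0 0 with ha
  set b := H 0 1 with hb
  -- distance
  have hd1 := hfar (repair A a b) (repair_free H A)
  have hd2 : (hammingDist A (repair A a b) : ℝ) ≤
      2 * ((∑ x : Fin n, betaOf A a b x : ℕ) : ℝ) + n := by
    exact_mod_cast dist_repair_le A a b
  -- first Cauchy-Schwarz step
  have hcs1 : (∑ x : Fin n, betaOf A a b x) ^ 2 ≤
      n * ∑ x : Fin n, rowPairs (A x) a b := by
    have h := sq_sum_le_card_mul_sum_sq (s := (univ : Finset (Fin n)))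
      (f := fun x => betaOf A a b x)
    rw [Finset.card_univ, Fintype.card_fin] at h
    refine le_trans h (Nat.mul_le_mul_left _ (Finset.sum_le_sum fun x _ => beta_sq_le A a b x))
  -- second Cauchy-Schwarz step
  have hcs2 : (∑ x : Fin n, rowPairs (A x) a b) ^ 2 ≤
      n ^ 2 * ((∑ x : Fin n, rowPairs (A x) a b) + 2 * numCopies H A) := by
    have h := sq_sum_le_card_mul_sum_sq (s := (univ : Finset (Fin n × Fin n)))
      (f := fun q => rowsAt A a b q)
    rw [Finset.card_univ, Fintype.card_prod, Fintype.card_fin, sum_rowsAt] at h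
    have h2 : ∑ q : Fin n × Fin n, rowsAt A a b q ^ 2 ≤
        (∑ x : Fin n, rowPairs (A x) a b) + 2 * numCopies H A := by
      calc ∑ q : Fin n × Fin n, rowsAt A a b q ^ 2
          ≤ ∑ q : Fin n × Fin n, (rowsAt A a b q + 2 * pairsAt A a b q) :=
            Finset.sum_le_sum fun q _ => rowsAt_sq_le A a b q
        _ = (∑ x : Fin n, rowPairs (A x) a b) + 2 * numCopies H A := by
            rw [Finset.sum_add_distrib, ← Finset.mul_sum, sum_rowsAt, sum_pairsAt H hH A]
    calc (∑ x : Fin n, rowPairs (A x) a b) ^ 2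
        ≤ n * n * ∑ q : Fin n × Fin n, rowsAt A a b q ^ 2 := h
      _ ≤ n * n * ((∑ x : Fin n, rowPairs (A x) a b) + 2 * numCopies H A) :=
          Nat.mul_le_mul_left _ h2
      _ = _ := by ring
  have hcs1r : ((∑ x : Fin n, betaOf A a b x : ℕ) : ℝ) ^ 2 ≤
      (n : ℝ) * ((∑ x : Fin n, rowPairs (A x) a b : ℕ) : ℝ) := by
    exact_mod_cast hcs1
  have hcs2r : ((∑ x : Fin n, rowPairs (A x) a b : ℕ) : ℝ) ^ 2 ≤
      (n : ℝ) ^ 2 * (((∑ x : Fin n, rowPairs (A x) a b : ℕ) : ℝ) + 2 * (numCopies H A : ℝ)) := by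
    exact_mod_cast hcs2
  exact arith_degen (n : ℝ) ε (numCopies H A : ℝ)
    ((∑ x : Fin n, rowPairs (A x) a b : ℕ) : ℝ) ((∑ x : Fin n, betaOf A a b x : ℕ) : ℝ)
    hnr hε hε1 hNr (le_trans hd1 hd2) hcs1r hcs2r

/-! ### Transposition and equal columns -/

/-- Transposed matrix. -/
def tr (A : BMat n) : BMat n := fun i c => A c i

/-- Transposed pattern. -/
def trP (H : Fin 2 → Fin 2 → Bool) : Fin 2 → Fin 2 → Bool := fun a b => H b a

theorem copy_tr (H : Fin 2 → Fin 2 → Bool) (A : BMat n) (i j c d : Fin n) :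
    IsCopy (trP H) (tr A) c d i j ↔ IsCopy H A i j c d := by
  unfold IsCopy tr trP
  tauto

theorem free_tr (H : Fin 2 → Fin 2 → Bool) (A : BMat n) :
    IsFree (trP H) (tr A) ↔ IsFree H A := by
  constructor
  · intro h i j c d hc
    exact h c d i j ((copy_tr H A i j c d).mpr hc)
  · intro h c d i j hc
    exact h i j c d ((copy_tr H A i j c d).mp hc)

theorem numCopies_tr (H : Fin 2 → Fin 2 → Bool) (A : BMat n) :
    numCopies (trP H) (tr A) = numCopies H A := by
  unfold numCopies copySet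
  symm
  apply Finset.card_bij (fun w _ => (w.2.2.1, w.2.2.2, w.1, w.2.1))
  · intro w hw
    simp only [mem_filter, mem_univ, true_and] at hw ⊢
    exact (copy_tr H A _ _ _ _).mpr hw
  · intro w _ w' _ heq
    simp only [Prod.mk.injEq] at heq
    obtain ⟨h1, h2, h3, h4⟩ := heq
    exact Prod.ext h3 (Prod.ext h4 (Prod.ext h1 h2))
  · intro w hw
    simp only [mem_filter, mem_univ, true_and] at hw
    refine ⟨(w.2.2.1, w.2.2.2, w.1, w.2.1), ?_, rfl⟩
    simp only [mem_filter, mem_univ, true_and]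
    exact (copy_tr H A _ _ _ _).mp hw

theorem dist_tr (A B : BMat n) : hammingDist (tr A) (tr B) = hammingDist A B := by
  unfold hammingDist
  apply Finset.card_bij (fun p _ => (p.2, p.1))
  · intro p hp
    simp only [mem_filter, mem_univ, true_and] at hp ⊢
    exact hp
  · intro p _ p' _ heq
    simp only [Prod.mk.injEq] at heq
    exact Prod.ext heq.2 heq.1
  · intro p hp
    simp only [mem_filter, mem_univ, true_and] at hp
    refine ⟨(p.2, p.1), ?_, rfl⟩
    simp only [mem_filter, mem_univ, true_and]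
    exact hp

/-- Polynomial removal for patterns with two equal columns. -/
theorem removal_eqCols (H : Fin 2 → Fin 2 → Bool) (hH : (fun a => H a 0) = (fun a => H a 1))
    (n : ℕ) (A : BMat n) (ε : ℝ) (hε : 0 < ε) (hε1 : ε < 1)
    (hfar : ∀ B : BMat n, IsFree H B → ε * (n : ℝ) ^ 2 ≤ (hammingDist A B : ℝ)) :
    ε ^ 8 * (n : ℝ) ^ 4 ≤ 1048576 * (numCopies H A : ℝ) := by
  have hrows : trP H 0 = trP H 1 := by
    funext b
    exact congrFun hH b
  have hfar' : ∀ B : BMat n, IsFree (trP H) B →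
      ε * (n : ℝ) ^ 2 ≤ (hammingDist (tr A) B : ℝ) := by
    intro B hB
    have h1 : IsFree H (tr B) := (free_tr H (tr B)).mp hB
    have h2 := hfar (tr B) h1
    have h3 : hammingDist (tr A) B = hammingDist A (tr B) := dist_tr A (tr B)
    rw [h3]
    exact h2
  have h := removal_eqRows (trP H) hrows n (tr A) ε hε hε1 hfar'
  rw [numCopies_tr] at h
  exact h

/-- Polynomial removal for every degenerate `2 x 2` pattern (two equal rows or two equal
columns), sharper form. -/
theorem removal_degenerate8 (H : Fin 2 → Fin 2 → Bool)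
    (hdeg : H 0 = H 1 ∨ (fun a => H a 0) = (fun a => H a 1))
    (n : ℕ) (A : BMat n) (ε : ℝ) (hε : 0 < ε) (hε1 : ε < 1)
    (hfar : ∀ B : BMat n, IsFree H B →
      ε * (n : ℝ) ^ 2 ≤ (Vale.Agent.Lib.P037.hammingDist A B : ℝ)) :
    ε ^ 8 * (n : ℝ) ^ 4 ≤ 1048576 * (numCopies H A : ℝ) := by
  rcases hdeg with h | h
  · exact removal_eqRows H h n A ε hε hε1 hfar
  · exact removal_eqCols H h n A ε hε hε1 hfar

/-- Polynomial removal for every degenerate `2 x 2` pattern, with the uniform constants. -/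
theorem removal_degenerate (H : Fin 2 → Fin 2 → Bool)
    (hdeg : H 0 = H 1 ∨ (fun a => H a 0) = (fun a => H a 1))
    (n : ℕ) (A : BMat n) (ε : ℝ) (hε : 0 < ε) (hε1 : ε < 1)
    (hfar : ∀ B : BMat n, IsFree H B →
      ε * (n : ℝ) ^ 2 ≤ (Vale.Agent.Lib.P037.hammingDist A B : ℝ)) :
    ε ^ 18 * (n : ℝ) ^ 4 ≤ 3 * 10 ^ 12 * (numCopies H A : ℝ) := by
  have h := removal_degenerate8 H hdeg n A ε hε hε1 hfar
  have h1 : ε ^ 18 ≤ ε ^ 8 := pow_le_pow_of_le_one hε.le hε1.le (by norm_num)
  have h2 : (0 : ℝ) ≤ (n : ℝ) ^ 4 := by positivity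
  have h3 : (0 : ℝ) ≤ (numCopies H A : ℝ) := Nat.cast_nonneg _
  nlinarith [mul_le_mul_of_nonneg_right h1 h2]

end Vale.Agent.Lib.P037.helper29
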